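import Vale.Agent.Lib.P100.Exterior

namespace Vale.Agent.Lib.P100

open Laplacian InnerProductSpace Filter Topology

variable {E : Type*} [NormedAddCommGroup E] [InnerProductSpace ℝ E] [FiniteDimensional ℝ E]

/-- one half of the bootstrap: a power lower bound for `w₁` outside the unit ball yields a power
lower bound for `w₂` when `-Δ w₂ = |x|^B w₁^q`. -/
lemma half_step [Nontrivial E] (hdim : 3 ≤ Module.finrank ℝ E) {w₁ w₂ : E → ℝ} {q B a c : ℝ}
    (hq : 0 < q) (hc : 0 < c)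
    (hw₂ : ∀ x, x ≠ 0 → ContDiffAt ℝ 2 w₂ x) (hpos₂ : ∀ x, 1 ≤ ‖x‖ → 0 < w₂ x)
    (heq : ∀ x, x ≠ 0 → -(Δ w₂ x) = ‖x‖ ^ B * (w₁ x) ^ q)
    (hlow : ∀ x, 1 ≤ ‖x‖ → c * ‖x‖ ^ (-a) ≤ w₁ x) :
    ∃ b c', 0 < b ∧ b ≤ (Module.finrank ℝ E : ℝ) - 2 ∧ b ≤ q * a - (B + 2) ∧ 0 < c' ∧
      ∀ x, 1 ≤ ‖x‖ → c' * ‖x‖ ^ (-b) ≤ w₂ x := by
  set d := (Module.finrank ℝ E : ℝ) - 2 with hd
  have hd1 : 1 ≤ d := by
    have : (3 : ℝ) ≤ (Module.finrank ℝ E : ℝ) := by exact_mod_cast hdim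
    rw [hd]; linarith
  set K := c ^ q with hK
  have hKpos : 0 < K := Real.rpow_pos_of_pos hc q
  set b0 := q * a - (B + 2) with hb0
  have hforce : ∀ x : E, 1 ≤ ‖x‖ → Δ w₂ x ≤ -(K * ‖x‖ ^ (-b0 - 2)) := by
    intro x hx
    have hxn : 0 < ‖x‖ := by linarith
    have hx0 : x ≠ 0 := norm_pos_iff.1 hxn
    have h1 : (c * ‖x‖ ^ (-a)) ^ q ≤ (w₁ x) ^ q :=
      Real.rpow_le_rpow (by positivity) (hlow x hx) hq.le
    have h2 : (c * ‖x‖ ^ (-a)) ^ q = K * ‖x‖ ^ (-a * q) := by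
      rw [Real.mul_rpow hc.le (Real.rpow_nonneg hxn.le _), ← Real.rpow_mul hxn.le]
    have h3 : ‖x‖ ^ B * (K * ‖x‖ ^ (-a * q)) = K * ‖x‖ ^ (-b0 - 2) := by
      have : ‖x‖ ^ B * ‖x‖ ^ (-a * q) = ‖x‖ ^ (-b0 - 2) := by
        rw [← Real.rpow_add hxn]
        congr 1
        rw [hb0]; ring
      rw [← this]; ring
    have h4 : ‖x‖ ^ B * (K * ‖x‖ ^ (-a * q)) ≤ ‖x‖ ^ B * (w₁ x) ^ q := by
      apply mul_le_mul_of_nonneg_left _ (Real.rpow_nonneg hxn.le _)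
      rw [← h2]; exact h1
    have := heq x hx0
    linarith
  rcases le_or_gt b0 0 with hb | hb
  · exfalso
    refine no_exterior_inverse_square hdim hw₂ hpos₂ hKpos ?_
    intro x hx
    have hxn : 0 < ‖x‖ := by linarith
    have h1 := hforce x hx.le
    have h2 : ‖x‖ ^ (-2 : ℝ) ≤ ‖x‖ ^ (-b0 - 2) :=
      Real.rpow_le_rpow_of_exponent_le hx.le (by linarith)
    have h3 : ‖x‖ ^ (-2 : ℝ) = 1 / ‖x‖ ^ 2 := by
      rw [Real.rpow_neg hxn.le, one_div]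
      congr 1
      exact_mod_cast Real.rpow_natCast ‖x‖ 2
    have h4 : K / ‖x‖ ^ 2 = K * ‖x‖ ^ (-2 : ℝ) := by rw [h3]; ring
    rw [h4]
    have := mul_le_mul_of_nonneg_left h2 hKpos.le
    linarith
  rcases lt_or_ge b0 d with hbd | hbd
  · obtain ⟨c', hc', hlow'⟩ := lower_bound_forced hw₂ hpos₂ hb hbd hKpos
      (fun x hx => hforce x hx.le)
    exact ⟨b0, c', hb, hbd.le, le_rfl, hc', hlow'⟩
  · obtain ⟨c', hc', hlow'⟩ := lower_bound_fundamental hdim hw₂ hpos₂ (by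
      intro x hx
      have hxn : 0 < ‖x‖ := by linarith
      have h1 := hforce x hx.le
      have h2 : 0 < K * ‖x‖ ^ (-b0 - 2) := mul_pos hKpos (Real.rpow_pos_of_pos hxn _)
      linarith)
    exact ⟨d, c', by linarith, le_rfl, hbd, hc', hlow'⟩

/-- Nonexistence in the Serrin-type region `(A+2) + p (B+2) > (n-2)(pq-1)`, `A, B > -2`, `n ≥ 3`,
for positive solutions in the exterior of the unit ball. -/
theorem no_solution_serrin (hdim : 3 ≤ Module.finrank ℝ E) {u v : E → ℝ} {p q A B : ℝ}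
    (hp : 0 < p) (hq : 0 < q) (hA : -2 < A) (hB : -2 < B)
    (hu : ∀ x, x ≠ 0 → ContDiffAt ℝ 2 u x) (hv : ∀ x, x ≠ 0 → ContDiffAt ℝ 2 v x)
    (hpu : ∀ x, 1 ≤ ‖x‖ → 0 < u x) (hpv : ∀ x, 1 ≤ ‖x‖ → 0 < v x)
    (hequ : ∀ x, x ≠ 0 → -(Δ u x) = ‖x‖ ^ A * (v x) ^ p)
    (heqv : ∀ x, x ≠ 0 → -(Δ v x) = ‖x‖ ^ B * (u x) ^ q)
    (hreg : ((Module.finrank ℝ E : ℝ) - 2) * (p * q - 1) < (A + 2) + p * (B + 2)) : False := by
  have hnt : Nontrivial E := by
    apply Module.nontrivial_of_finrank_pos (R := ℝ)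
    omega
  set d := (Module.finrank ℝ E : ℝ) - 2 with hd
  have hd1 : 1 ≤ d := by
    have : (3 : ℝ) ≤ (Module.finrank ℝ E : ℝ) := by exact_mod_cast hdim
    rw [hd]; linarith
  set θ := (A + 2) + p * (B + 2) with hθ
  have hθpos : 0 < θ := by
    have : 0 < p * (B + 2) := mul_pos hp (by linarith)
    rw [hθ]; linarith
  set δ := min θ (θ - d * (p * q - 1)) with hδ
  have hδpos : 0 < δ := lt_min hθpos (by linarith)
  have hH : ∀ a, 0 ≤ a → a ≤ d → p * (q * a - (B + 2)) - (A + 2) ≤ a - δ := by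
    intro a ha0 had
    have h1 : δ ≤ θ := min_le_left _ _
    have h2 : δ ≤ θ - d * (p * q - 1) := min_le_right _ _
    rcases le_or_gt (p * q - 1) 0 with h | h
    · have : (p * q - 1) * a ≤ 0 := mul_nonpos_of_nonpos_of_nonneg h ha0
      rw [hθ] at h1
      nlinarith
    · have : (p * q - 1) * a ≤ (p * q - 1) * d := mul_le_mul_of_nonneg_left had h.le
      rw [hθ] at h2
      nlinarith
  have hind : ∀ k : ℕ, ∀ a c : ℝ, a ≤ k * δ → a ≤ d → 0 < c →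
      (∀ x : E, 1 ≤ ‖x‖ → c * ‖x‖ ^ (-a) ≤ u x) → False := by
    intro k
    induction k with
    | zero =>
      intro a c hak _ hc hlow
      obtain ⟨b, c', hb, -, hb2, -, -⟩ := half_step hdim hq hc hv hpv heqv hlow
      have ha0 : a ≤ 0 := by simpa using hak
      have : q * a ≤ 0 := mul_nonpos_of_nonneg_of_nonpos hq.le ha0
      linarith
    | succ k ih =>
      intro a c hak had hc hlow
      obtain ⟨b, c', hb, -, hb2, hc', hlow'⟩ := half_step hdim hq hc hv hpv heqv hlow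
      have ha0 : 0 < a := by
        by_contra hneg
        have : q * a ≤ 0 := mul_nonpos_of_nonneg_of_nonpos hq.le (not_lt.1 hneg)
        linarith
      obtain ⟨a', c'', ha', ha'd, ha'2, hc'', hlow''⟩ := half_step hdim hp hc' hu hpu hequ hlow'
      have h1 : a' ≤ a - δ := by
        have h2 := hH a ha0.le had
        have h3 : p * b ≤ p * (q * a - (B + 2)) := mul_le_mul_of_nonneg_left hb2 hp.le
        linarith
      refine ih a' c'' ?_ ha'd hc'' hlow''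
      push_cast at hak
      linarith
  obtain ⟨c, hc, hlow⟩ := lower_bound_fundamental hdim hu hpu (by
    intro x hx
    have hxn : 0 < ‖x‖ := by linarith
    have hx0 : x ≠ 0 := norm_pos_iff.1 hxn
    have h1 := hequ x hx0
    have h2 : 0 < ‖x‖ ^ A * (v x) ^ p :=
      mul_pos (Real.rpow_pos_of_pos hxn _) (Real.rpow_pos_of_pos (hpv x hx.le) _)
    linarith)
  obtain ⟨k, hk⟩ := exists_nat_ge (d / δ)
  refine hind k d c ?_ le_rfl hc hlow
  rw [div_le_iff₀ hδpos] at hk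
  exact hk

end Vale.Agent.Lib.P100
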