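import Mathlib

namespace Vale.Agent.Lib.P100

open Laplacian InnerProductSpace Filter Topology

section line

variable {E : Type*} [NormedAddCommGroup E] [NormedSpace ℝ E]

/-- first derivative along a line -/
lemma deriv_line {f : E → ℝ} {x e : E} (hf : DifferentiableAt ℝ f x) :
    HasDerivAt (fun t : ℝ => f (x + t • e)) (fderiv ℝ f x e) 0 := by
  have h1 : HasDerivAt (fun t : ℝ => x + t • e) e 0 := by
    simpa using ((hasDerivAt_id (0 : ℝ)).smul_const e).const_add x
  have h2 : HasFDerivAt f (fderiv ℝ f x) (x + (0 : ℝ) • e) := by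
    simpa using hf.hasFDerivAt
  exact h2.comp_hasDerivAt (0 : ℝ) h1

lemma deriv_line' {f : E → ℝ} {x e : E} {t : ℝ} (hf : DifferentiableAt ℝ f (x + t • e)) :
    HasDerivAt (fun t : ℝ => f (x + t • e)) (fderiv ℝ f (x + t • e) e) t := by
  have h1 : HasDerivAt (fun t : ℝ => x + t • e) e t := by
    simpa using ((hasDerivAt_id t).smul_const e).const_add x
  exact hf.hasFDerivAt.comp_hasDerivAt t h1

/-- second derivative along a line -/
lemma iteratedFDeriv_two_line {f : E → ℝ} {x e : E} (hf : ContDiffAt ℝ 2 f x) :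
    iteratedFDeriv ℝ 2 f x ![e, e] = deriv (deriv (fun t : ℝ => f (x + t • e))) 0 := by
  rw [iteratedFDeriv_two_apply]
  simp only [Matrix.cons_val_zero, Matrix.cons_val_one]
  have hev : ∀ᶠ y in 𝓝 x, DifferentiableAt ℝ f y := by
    have := hf.eventually (by simp)
    filter_upwards [this] with y hy
    exact hy.differentiableAt (by norm_num)
  have hcont : Tendsto (fun t : ℝ => x + t • e) (𝓝 0) (𝓝 x) := by
    have : Continuous (fun t : ℝ => x + t • e) := by fun_prop
    simpa using this.tendsto 0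
  have hev2 : deriv (fun t : ℝ => f (x + t • e)) =ᶠ[𝓝 (0 : ℝ)] fun t => fderiv ℝ f (x + t • e) e := by
    filter_upwards [hcont.eventually hev] with t ht
    exact (deriv_line' ht).deriv
  rw [hev2.deriv_eq]
  have hd : DifferentiableAt ℝ (fderiv ℝ f) x :=
    (hf.fderiv_right (m := 1) (by norm_num)).differentiableAt (by norm_num)
  have h1 : HasDerivAt (fun t : ℝ => x + t • e) e 0 := by
    simpa using ((hasDerivAt_id (0 : ℝ)).smul_const e).const_add x
  have h2 : HasFDerivAt (fderiv ℝ f) (fderiv ℝ (fderiv ℝ f) x) (x + (0 : ℝ) • e) := by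
    simpa using hd.hasFDerivAt
  have h3 : HasDerivAt (fun t : ℝ => fderiv ℝ f (x + t • e)) (fderiv ℝ (fderiv ℝ f) x e) 0 :=
    h2.comp_hasDerivAt (0 : ℝ) h1
  have h4 : HasDerivAt (fun t : ℝ => fderiv ℝ f (x + t • e) e) (fderiv ℝ (fderiv ℝ f) x e e) 0 :=
    h3.clm_apply (hasDerivAt_const _ _) |>.congr_deriv (by simp)
  exact h4.deriv.symm

end line

/-- one-dimensional necessary second order condition -/
lemma deriv_deriv_nonneg_of_isLocalMin {g : ℝ → ℝ} {t : ℝ} (hmin : IsLocalMin g t)
    (hc : ContinuousAt g t) : 0 ≤ deriv (deriv g) t := by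
  by_contra hneg
  rw [not_le] at hneg
  have hd : deriv g t = 0 := hmin.deriv_eq_zero
  have hmax : IsLocalMax g t := isLocalMax_of_deriv_deriv_neg hneg hd hc
  have hconst : g =ᶠ[𝓝 t] fun _ => g t := by
    filter_upwards [hmin, hmax] with s h1 h2
    exact le_antisymm h2 h1
  have h1 : deriv g =ᶠ[𝓝 t] deriv (fun _ => g t) := hconst.deriv
  have h2 : deriv (deriv g) t = deriv (deriv (fun _ : ℝ => g t)) t := h1.deriv_eq
  rw [h2] at hneg
  simp at hneg

section lap

variable {E : Type*} [NormedAddCommGroup E] [InnerProductSpace ℝ E] [FiniteDimensional ℝ E]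

/-- At a local minimum of a `C^2` function the Laplacian is nonnegative. -/
lemma laplacian_nonneg_of_isLocalMin {f : E → ℝ} {x : E} (hf : ContDiffAt ℝ 2 f x)
    (hmin : IsLocalMin f x) : 0 ≤ Δ f x := by
  rw [laplacian_eq_iteratedFDeriv_stdOrthonormalBasis]
  apply Finset.sum_nonneg
  intro i _
  rw [iteratedFDeriv_two_line hf]
  set e := (stdOrthonormalBasis ℝ E) i
  have hcont : Continuous (fun t : ℝ => x + t • e) := by fun_prop
  have htend : Tendsto (fun t : ℝ => x + t • e) (𝓝 0) (𝓝 x) := by
    simpa using hcont.tendsto 0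
  apply deriv_deriv_nonneg_of_isLocalMin
  · have := htend.eventually hmin
    filter_upwards [this] with t ht
    simpa using ht
  · have h1 : ContinuousAt f (x + (0 : ℝ) • e) := by simpa using hf.continuousAt
    exact ContinuousAt.comp (f := fun t : ℝ => x + t • e) h1 hcont.continuousAt

end lap

end Vale.Agent.Lib.P100
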