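import Vale.Agent.Lib.P100.Radial

namespace Vale.Agent.Lib.P100

open Laplacian InnerProductSpace Filter Topology

/-- comparison profile: `κ log r + ε (log r)^2` written in the variable `s = r^2`. -/
noncomputable def cmp (κ ε : ℝ) (s : ℝ) : ℝ := κ / 2 * Real.log s + ε / 4 * (Real.log s) ^ 2

lemma cmp_hasDerivAt (κ ε : ℝ) {s : ℝ} (hs : s ≠ 0) :
    HasDerivAt (cmp κ ε) ((κ + ε * Real.log s) / 2 * s⁻¹) s := by
  have h1 := Real.hasDerivAt_log hs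
  have h2 : HasDerivAt (fun s => (Real.log s) ^ 2) (2 * Real.log s * s⁻¹) s := by
    have h := h1.mul h1
    have hfun : (fun s => (Real.log s) ^ 2) = fun s => Real.log s * Real.log s := by
      ext t; ring
    rw [hfun]
    refine HasDerivAt.congr_deriv h ?_
    ring
  have h3 := (h1.const_mul (κ / 2)).add (h2.const_mul (ε / 4))
  refine h3.congr_deriv ?_
  ring

lemma cmp_deriv_deriv (κ ε : ℝ) {s : ℝ} (hs : s ≠ 0) :
    deriv (deriv (cmp κ ε)) s = (ε - κ - ε * Real.log s) / 2 * (s⁻¹) ^ 2 := by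
  have hev : deriv (cmp κ ε) =ᶠ[𝓝 s] fun s => (κ + ε * Real.log s) / 2 * s⁻¹ := by
    filter_upwards [isOpen_ne.mem_nhds hs] with t ht
    exact (cmp_hasDerivAt κ ε ht).deriv
  rw [hev.deriv_eq]
  have h1 := Real.hasDerivAt_log hs
  have h2 : HasDerivAt (fun s => (κ + ε * Real.log s) / 2) (ε * s⁻¹ / 2) s :=
    ((h1.const_mul ε).const_add κ).div_const 2
  have h3 : HasDerivAt (fun s : ℝ => s⁻¹) (-(s ^ 2)⁻¹) s := hasDerivAt_inv hs
  have h4 : HasDerivAt (fun s => (κ + ε * Real.log s) / 2 * s⁻¹)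
      (ε * s⁻¹ / 2 * s⁻¹ + (κ + ε * Real.log s) / 2 * (-(s ^ 2)⁻¹)) s := h2.mul h3
  rw [h4.deriv]
  field_simp
  ring

lemma cmp_contDiffAt (κ ε : ℝ) {s : ℝ} (hs : s ≠ 0) : ContDiffAt ℝ 2 (cmp κ ε) s := by
  have h1 : ContDiffAt ℝ 2 Real.log s := Real.contDiffAt_log.2 hs
  unfold cmp
  exact (contDiffAt_const.mul h1).add (contDiffAt_const.mul (h1.pow 2))

section

variable {E : Type*} [NormedAddCommGroup E] [InnerProductSpace ℝ E] [FiniteDimensional ℝ E]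

lemma normsq_ne_zero {x : E} (hx : x ≠ 0) : ‖x‖ ^ 2 ≠ 0 := by
  have : ‖x‖ ≠ 0 := norm_ne_zero_iff.2 hx
  positivity

lemma laplacian_cmp (κ ε : ℝ) {x : E} (hx : x ≠ 0) :
    Δ (fun y : E => cmp κ ε (‖y‖ ^ 2)) x
      = (κ * ((Module.finrank ℝ E : ℝ) - 2)
          + ε * (2 + ((Module.finrank ℝ E : ℝ) - 2) * Real.log (‖x‖ ^ 2))) / ‖x‖ ^ 2 := by
  have hs := normsq_ne_zero hx
  rw [laplacian_radial (cmp_contDiffAt κ ε hs), cmp_deriv_deriv κ ε hs,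
    (cmp_hasDerivAt κ ε hs).deriv]
  field_simp
  ring

/-- minimum principle on a closed annulus for strictly superharmonic functions -/
lemma min_principle_annulus {f : E → ℝ} {ρ R c : ℝ}
    (hcont : ContinuousOn f {x | ρ ≤ ‖x‖ ∧ ‖x‖ ≤ R})
    (hsm : ∀ x, ρ < ‖x‖ → ‖x‖ < R → ContDiffAt ℝ 2 f x ∧ Δ f x < 0)
    (hin : ∀ x, ‖x‖ = ρ → c ≤ f x) (hout : ∀ x, ‖x‖ = R → c ≤ f x) :
    ∀ x, ρ ≤ ‖x‖ → ‖x‖ ≤ R → c ≤ f x := by
  intro x hx1 hx2
  set K : Set E := {x | ρ ≤ ‖x‖ ∧ ‖x‖ ≤ R} with hK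
  have hKc : IsCompact K := by
    have h1 : K = Metric.closedBall 0 R ∩ {x | ρ ≤ ‖x‖} := by
      ext y
      simp [hK, and_comm]
    rw [h1]
    exact (isCompact_closedBall 0 R).inter_right (isClosed_le continuous_const continuous_norm)
  obtain ⟨x0, hx0K, hx0⟩ := hKc.exists_isMinOn ⟨x, hx1, hx2⟩ hcont
  have hle : f x0 ≤ f x := hx0 ⟨hx1, hx2⟩
  refine le_trans ?_ hle
  rcases eq_or_lt_of_le hx0K.1 with h1 | h1
  · exact hin x0 h1.symm
  rcases eq_or_lt_of_le hx0K.2 with h2 | h2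
  · exact hout x0 h2
  exfalso
  obtain ⟨hC, hneg⟩ := hsm x0 h1 h2
  have hopen : IsOpen {x : E | ρ < ‖x‖ ∧ ‖x‖ < R} :=
    (isOpen_lt continuous_const continuous_norm).inter (isOpen_lt continuous_norm continuous_const)
  have hnhds : K ∈ 𝓝 x0 := by
    apply Filter.mem_of_superset (hopen.mem_nhds ⟨h1, h2⟩)
    intro y hy
    exact ⟨hy.1.le, hy.2.le⟩
  have hloc : IsLocalMin f x0 := hx0.isLocalMin hnhds
  have := laplacian_nonneg_of_isLocalMin hC hloc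
  linarith

end

end Vale.Agent.Lib.P100
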