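import Mathlib

namespace Vale.Agent.Lib.P100

open Laplacian InnerProductSpace

/-- `(u, v)` is a positive entire solution of the Henon-Lane-Emden system
`-Δu = |x|^A v^p`, `-Δv = |x|^B u^q` in `ℝ^n \ {0}`: both functions are continuous on `ℝ^n`,
of class `C^2` on `ℝ^n \ {0}`, positive everywhere, and satisfy both equations at every `x ≠ 0`. -/
def IsPositiveEntireSolution (n : ℕ) (p q A B : ℝ)
    (u v : EuclideanSpace ℝ (Fin n) → ℝ) : Prop :=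
  Continuous u ∧ Continuous v ∧
  ContDiffOn ℝ 2 u {0}ᶜ ∧ ContDiffOn ℝ 2 v {0}ᶜ ∧
  (∀ x, 0 < u x) ∧ (∀ x, 0 < v x) ∧
  (∀ x, x ≠ 0 → -(Δ u x) = ‖x‖ ^ A * (v x) ^ p) ∧
  (∀ x, x ≠ 0 → -(Δ v x) = ‖x‖ ^ B * (u x) ^ q)

end Vale.Agent.Lib.P100
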