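import Vale.Agent.Lib.P100.Power

namespace Vale.Agent.Lib.P100

open Laplacian InnerProductSpace Filter Topology

lemma exists_large {a δ : ℝ} (ha : 0 < a) (hδ : 0 < δ) (r : ℝ) : ∃ R, r ≤ R ∧ R ^ (-a) ≤ δ := by
  have h1 : ∀ᶠ R : ℝ in atTop, R ^ (-a) < δ :=
    (tendsto_rpow_neg_atTop ha).eventually (gt_mem_nhds hδ)
  have h2 : ∀ᶠ R : ℝ in atTop, r ≤ R := eventually_ge_atTop r
  obtain ⟨R, hR1, hR2⟩ := (h1.and h2).exists
  exact ⟨R, hR2, hR1.le⟩

variable {E : Type*} [NormedAddCommGroup E] [InnerProductSpace ℝ E] [FiniteDimensional ℝ E]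

lemma exists_min_sphere [Nontrivial E] {w : E → ℝ} (hw : ∀ x, x ≠ 0 → ContDiffAt ℝ 2 w x)
    (hpos : ∀ x, 1 ≤ ‖x‖ → 0 < w x) : ∃ c, 0 < c ∧ ∀ x : E, ‖x‖ = 1 → c ≤ w x := by
  have hS : IsCompact (Metric.sphere (0 : E) 1) := isCompact_sphere 0 1
  have hSne : (Metric.sphere (0 : E) 1).Nonempty := by
    obtain ⟨x, hx⟩ := exists_norm_eq E (zero_le_one)
    exact ⟨x, by simpa using hx⟩
  have hne1 : ∀ x : E, ‖x‖ = 1 → x ≠ 0 := by
    intro x hx h0
    rw [h0, norm_zero] at hx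
    exact zero_ne_one hx
  have hcontS : ContinuousOn w (Metric.sphere (0 : E) 1) := by
    intro x hx
    exact (hw x (hne1 x (by simpa using hx))).continuousAt.continuousWithinAt
  obtain ⟨x0, hx0S, hx0⟩ := hS.exists_isMinOn hSne hcontS
  have hx0n : ‖x0‖ = 1 := by simpa using hx0S
  exact ⟨w x0, hpos x0 hx0n.ge, fun x hx => hx0 (by simpa using hx)⟩

/-- general lower bound: if `Δ w + η a (d-a) |x|^{-a-2} < 0` outside the unit ball, `η ≤ min w` on the
unit sphere, then `w ≥ η |x|^{-a}` outside the unit ball. -/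
lemma lower_bound_power {w : E → ℝ} (hw : ∀ x, x ≠ 0 → ContDiffAt ℝ 2 w x)
    (hpos : ∀ x, 1 ≤ ‖x‖ → 0 < w x) {a η : ℝ} (ha : 0 < a) (hη : 0 < η)
    (hsph : ∀ x : E, ‖x‖ = 1 → η ≤ w x)
    (hlap : ∀ x, 1 < ‖x‖ →
      Δ w x + η * (a * (((Module.finrank ℝ E : ℝ) - 2) - a)) * ‖x‖ ^ (-a - 2) < 0) :
    ∀ x, 1 ≤ ‖x‖ → η * ‖x‖ ^ (-a) ≤ w x := by
  intro x hx
  apply le_of_forall_pos_le_add
  intro δ hδ
  obtain ⟨R, hR1, hR2⟩ := exists_large ha (div_pos hδ hη) ‖x‖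
  have hRpos : 0 < R := by linarith
  have := annulus_compare2 (E := E) hw (κ := 0) (μ := -η) (a := a) (ρ := 1) (R := R)
    (c := -(η * R ^ (-a))) one_pos ?_ ?_ ?_ x hx hR1
  · have h3 : η * R ^ (-a) ≤ δ := by
      rw [le_div_iff₀ hη] at hR2; linarith
    linarith
  · intro y hy1 _
    have := hlap y hy1
    simp only [zero_mul, zero_div, add_zero]
    linarith
  · intro y hy
    have h1 := hsph y hy
    have h2 : 0 ≤ η * R ^ (-a) := by positivity
    simp only [Real.log_one, mul_zero, add_zero, Real.one_rpow]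
    linarith
  · intro y hy
    have h1 := hpos y (by rw [hy]; linarith)
    simp only [zero_mul, add_zero]
    linarith

/-- Fact 1: a positive strictly superharmonic function outside the unit ball dominates a multiple of
the fundamental solution. -/
lemma lower_bound_fundamental [Nontrivial E] (hdim : 3 ≤ Module.finrank ℝ E) {w : E → ℝ}
    (hw : ∀ x, x ≠ 0 → ContDiffAt ℝ 2 w x)
    (hpos : ∀ x, 1 ≤ ‖x‖ → 0 < w x) (hlap : ∀ x, 1 < ‖x‖ → Δ w x < 0) :
    ∃ c, 0 < c ∧ ∀ x, 1 ≤ ‖x‖ → c * ‖x‖ ^ (-((Module.finrank ℝ E : ℝ) - 2)) ≤ w x := by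
  obtain ⟨c, hc, hsph⟩ := exists_min_sphere hw hpos
  have hd : 0 < (Module.finrank ℝ E : ℝ) - 2 := by
    have : (3 : ℝ) ≤ (Module.finrank ℝ E : ℝ) := by exact_mod_cast hdim
    linarith
  refine ⟨c, hc, lower_bound_power hw hpos hd hc hsph ?_⟩
  intro x hx
  simpa using hlap x hx

/-- Fact 2a: improved lower bound from a forcing term `K |x|^{-a-2}` with `0 < a < d`. -/
lemma lower_bound_forced [Nontrivial E] {w : E → ℝ}
    (hw : ∀ x, x ≠ 0 → ContDiffAt ℝ 2 w x)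
    (hpos : ∀ x, 1 ≤ ‖x‖ → 0 < w x) {a K : ℝ} (ha : 0 < a)
    (had : a < (Module.finrank ℝ E : ℝ) - 2) (hK : 0 < K)
    (hlap : ∀ x, 1 < ‖x‖ → Δ w x ≤ -(K * ‖x‖ ^ (-a - 2))) :
    ∃ c, 0 < c ∧ ∀ x, 1 ≤ ‖x‖ → c * ‖x‖ ^ (-a) ≤ w x := by
  obtain ⟨c, hc, hsph⟩ := exists_min_sphere hw hpos
  set D := a * (((Module.finrank ℝ E : ℝ) - 2) - a) with hD
  have hDpos : 0 < D := mul_pos ha (by linarith)
  set η := min c (K / (2 * D)) with hη
  have hηpos : 0 < η := lt_min hc (by positivity)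
  refine ⟨η, hηpos, lower_bound_power hw hpos ha hηpos
    (fun x hx => (min_le_left _ _).trans (hsph x hx)) ?_⟩
  intro x hx
  have hxn : 0 < ‖x‖ := by linarith
  have h1 := hlap x hx
  have h2 : η * D ≤ K / 2 := by
    have : η ≤ K / (2 * D) := min_le_right _ _
    calc η * D ≤ K / (2 * D) * D := mul_le_mul_of_nonneg_right this hDpos.le
      _ = K / 2 := by field_simp
  have h3 : 0 < ‖x‖ ^ (-a - 2) := Real.rpow_pos_of_pos hxn _
  nlinarith

/-- Fact 2b: there is no positive function outside the unit ball with `-Δ w ≥ K |x|^{-2}`. -/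
lemma no_exterior_inverse_square [Nontrivial E] (hdim : 3 ≤ Module.finrank ℝ E) {w : E → ℝ}
    (hw : ∀ x, x ≠ 0 → ContDiffAt ℝ 2 w x)
    (hpos : ∀ x, 1 ≤ ‖x‖ → 0 < w x) {K : ℝ} (hK : 0 < K)
    (hlap : ∀ x, 1 < ‖x‖ → Δ w x ≤ -(K / ‖x‖ ^ 2)) : False := by
  set d := (Module.finrank ℝ E : ℝ) - 2 with hd
  have hd1 : 1 ≤ d := by
    have : (3 : ℝ) ≤ (Module.finrank ℝ E : ℝ) := by exact_mod_cast hdim
    rw [hd]; linarith
  set κ := K / (2 * d) with hκ
  have hκpos : 0 < κ := by positivity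
  have hκd : κ * d = K / 2 := by rw [hκ]; field_simp
  obtain ⟨x, hx⟩ := exists_norm_eq E (zero_le_two)
  set T : ℝ := 2 * (w x / κ + Real.log 2 + 1) with hT
  have hwx : 0 < w x := hpos x (by rw [hx]; norm_num)
  have hlog2 : 0 < Real.log 2 := Real.log_pos (by norm_num)
  have hTpos : Real.log 2 ≤ T := by
    have : 0 < w x / κ := by positivity
    rw [hT]; linarith
  set R := Real.exp T with hR
  have hRpos : 0 < R := Real.exp_pos _
  have hlogR : Real.log R = T := Real.log_exp T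
  have hR2 : 2 ≤ R := by
    rw [← Real.exp_log (show (0 : ℝ) < 2 by norm_num), hR]
    exact Real.exp_le_exp.2 hTpos
  have hT0 : 0 ≤ T := hlog2.le.trans hTpos
  have := annulus_compare2 (E := E) hw (κ := κ) (μ := κ * T) (a := d) (ρ := 1) (R := R)
    (c := κ * T) one_pos ?_ ?_ ?_ x (by rw [hx]; norm_num) (by rw [hx]; exact hR2)
  · rw [hx] at this
    have h2d : (2 : ℝ) ^ (-d) ≤ 1 / 2 := by
      calc (2 : ℝ) ^ (-d) ≤ (2 : ℝ) ^ (-1 : ℝ) :=
            Real.rpow_le_rpow_of_exponent_le (by norm_num) (by linarith)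
        _ = 1 / 2 := by rw [Real.rpow_neg_one]; norm_num
    have h3 : κ * T * (2 : ℝ) ^ (-d) ≤ κ * T * (1 / 2) :=
      mul_le_mul_of_nonneg_left h2d (by positivity)
    have h4 : κ * T = 2 * (w x + κ * Real.log 2 + κ) := by
      rw [hT]; field_simp
    nlinarith
  · intro y hy1 _
    have hyn : 0 < ‖y‖ := by linarith
    have h1 := hlap y hy1
    have h2 : κ * d / ‖y‖ ^ 2 = (K / ‖y‖ ^ 2) / 2 := by rw [hκd]; ring
    have h3 : 0 < K / ‖y‖ ^ 2 := by positivity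
    have h4 : κ * T * (d * (d - d)) * ‖y‖ ^ (-d - 2) = 0 := by
      rw [sub_self, mul_zero, mul_zero, zero_mul]
    show Δ w y + κ * d / ‖y‖ ^ 2 - κ * T * (d * (d - d)) * ‖y‖ ^ (-d - 2) < 0
    rw [h2, h4]
    linarith
  · intro y hy
    have h1 := hpos y hy.ge
    simp only [Real.log_one, mul_zero, add_zero, Real.one_rpow, mul_one]
    linarith
  · intro y hy
    have h1 := hpos y (by rw [hy]; linarith)
    rw [hlogR]
    have h2 : 0 ≤ κ * T * R ^ (-d) := by positivity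
    linarith

end Vale.Agent.Lib.P100
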