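import Vale.Agent.Lib.P100.Compare

namespace Vale.Agent.Lib.P100

open Laplacian InnerProductSpace Filter Topology

variable {E : Type*} [NormedAddCommGroup E] [InnerProductSpace ℝ E] [FiniteDimensional ℝ E]

lemma cmp_normsq (κ ε : ℝ) (x : E) :
    cmp κ ε (‖x‖ ^ 2) = κ * Real.log ‖x‖ + ε * (Real.log ‖x‖) ^ 2 := by
  unfold cmp
  rw [Real.log_pow]
  push_cast
  ring

lemma continuousOn_cmp (κ ε : ℝ) {s : Set E} (hs : ∀ x ∈ s, x ≠ 0) :
    ContinuousOn (fun y : E => cmp κ ε (‖y‖ ^ 2)) s := by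
  intro x hx
  exact (contDiffAt_radial (cmp_contDiffAt κ ε (normsq_ne_zero (hs x hx)))).continuousAt.continuousWithinAt

/-- comparison on an annulus: `u + κ log|x| + ε (log|x|)^2`. -/
lemma annulus_compare {u : E → ℝ} (hu : ∀ x, x ≠ 0 → ContDiffAt ℝ 2 u x) {κ ε ρ R c : ℝ} (hρ : 0 < ρ)
    (hlap : ∀ x, ρ < ‖x‖ → ‖x‖ < R → Δ u x + (κ * ((Module.finrank ℝ E : ℝ) - 2)
          + ε * (2 + ((Module.finrank ℝ E : ℝ) - 2) * Real.log (‖x‖ ^ 2))) / ‖x‖ ^ 2 < 0)
    (hin : ∀ x, ‖x‖ = ρ → c ≤ u x + (κ * Real.log ρ + ε * (Real.log ρ) ^ 2))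
    (hout : ∀ x, ‖x‖ = R → c ≤ u x + (κ * Real.log R + ε * (Real.log R) ^ 2)) :
    ∀ x, ρ ≤ ‖x‖ → ‖x‖ ≤ R → c ≤ u x + (κ * Real.log ‖x‖ + ε * (Real.log ‖x‖) ^ 2) := by
  have hne : ∀ x : E, ρ ≤ ‖x‖ → x ≠ 0 := by
    intro x hx h0
    rw [h0, norm_zero] at hx
    linarith
  have key := min_principle_annulus (E := E) (f := fun y => u y + cmp κ ε (‖y‖ ^ 2)) (ρ := ρ) (R := R)
    (c := c) ?_ ?_ ?_ ?_
  · intro x h1 h2
    have := key x h1 h2
    simpa [cmp_normsq] using this
  · apply ContinuousOn.add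
    · intro x hx
      exact (hu x (hne x hx.1)).continuousAt.continuousWithinAt
    · exact continuousOn_cmp κ ε (fun x hx => hne x hx.1)
  · intro x h1 h2
    have hx : x ≠ 0 := hne x h1.le
    have hc := contDiffAt_radial (E := E) (cmp_contDiffAt κ ε (normsq_ne_zero hx))
    refine ⟨(hu x hx).add hc, ?_⟩
    have hadd := ContDiffAt.laplacian_add (hu x hx) hc
    have hfun : (fun y => u y + cmp κ ε (‖y‖ ^ 2)) = u + fun y : E => cmp κ ε (‖y‖ ^ 2) := rfl
    rw [hfun, hadd, laplacian_cmp κ ε hx]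
    exact hlap x h1 h2
  · intro x hx
    have := hin x hx
    show c ≤ u x + cmp κ ε (‖x‖ ^ 2)
    rw [cmp_normsq, hx]
    exact this
  · intro x hx
    have := hout x hx
    show c ≤ u x + cmp κ ε (‖x‖ ^ 2)
    rw [cmp_normsq, hx]
    exact this

/-- In dimension two there is no positive strictly superharmonic `C^2` function on the punctured
plane. -/
theorem no_pos_superharmonic_dim_two (hdim : Module.finrank ℝ E = 2) {u : E → ℝ}
    (hu : ∀ x, x ≠ 0 → ContDiffAt ℝ 2 u x) (hpos : ∀ x, x ≠ 0 → 0 < u x)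
    (hlap : ∀ x, x ≠ 0 → Δ u x < 0) : False := by
  have hnt : Nontrivial E := by
    apply Module.nontrivial_of_finrank_pos (R := ℝ)
    omega
  -- minimum on the unit sphere
  have hS : IsCompact (Metric.sphere (0 : E) 1) := isCompact_sphere 0 1
  have hSne : (Metric.sphere (0 : E) 1).Nonempty := by
    obtain ⟨x, hx⟩ := exists_norm_eq E (zero_le_one)
    exact ⟨x, by simpa using hx⟩
  have hne1 : ∀ x : E, ‖x‖ = 1 → x ≠ 0 := by
    intro x hx h0
    rw [h0, norm_zero] at hx
    exact zero_ne_one hx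
  have hcontS : ContinuousOn u (Metric.sphere (0 : E) 1) := by
    intro x hx
    exact (hu x (hne1 x (by simpa using hx))).continuousAt.continuousWithinAt
  obtain ⟨x0, hx0S, hx0⟩ := hS.exists_isMinOn hSne hcontS
  have hx0n : ‖x0‖ = 1 := by simpa using hx0S
  have hx00 : x0 ≠ 0 := hne1 x0 hx0n
  set c := u x0 with hc
  have hcpos : 0 < c := hpos x0 hx00
  have hsphere : ∀ x : E, ‖x‖ = 1 → c ≤ u x := fun x hx => hx0 (by simpa using hx)
  have hdimR : (Module.finrank ℝ E : ℝ) - 2 = 0 := by rw [hdim]; norm_num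
  -- key estimate
  have hkey : ∀ x : E, x ≠ 0 → ∀ ε : ℝ, 0 < ε → c ≤ u x + ε * |Real.log ‖x‖| := by
    intro x hx ε hε
    have hxn : 0 < ‖x‖ := norm_pos_iff.2 hx
    rcases le_total 1 ‖x‖ with h1 | h1
    · -- outer annulus
      set R := max ‖x‖ (Real.exp (c / ε)) with hR
      have hRx : ‖x‖ ≤ R := le_max_left _ _
      have hRe : Real.exp (c / ε) ≤ R := le_max_right _ _
      have hRpos : 0 < R := lt_of_lt_of_le hxn hRx
      have hlogR : c / ε ≤ Real.log R := by
        rw [Real.le_log_iff_exp_le hRpos]; exact hRe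
      have := annulus_compare (E := E) hu (κ := ε) (ε := 0) (ρ := 1) (R := R) (c := c) one_pos
        ?_ ?_ ?_ x h1 hRx
      · have hlog : 0 ≤ Real.log ‖x‖ := Real.log_nonneg h1
        rw [abs_of_nonneg hlog]
        simpa using this
      · intro y hy1 _
        have hy : y ≠ 0 := by
          intro h0; rw [h0, norm_zero] at hy1; linarith
        rw [hdimR]
        simpa using hlap y hy
      · intro y hy
        simpa using hsphere y hy
      · intro y hy
        have hy0 : y ≠ 0 := by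
          intro h0; rw [h0, norm_zero] at hy; linarith
        have h2 : c ≤ ε * Real.log R := by
          rw [div_le_iff₀ hε] at hlogR; linarith
        have := hpos y hy0
        simp only [zero_mul, add_zero]
        linarith
    · -- inner annulus
      set ρ := min ‖x‖ (Real.exp (-(c / ε))) with hρ
      have hρx : ρ ≤ ‖x‖ := min_le_left _ _
      have hρe : ρ ≤ Real.exp (-(c / ε)) := min_le_right _ _
      have hρpos : 0 < ρ := lt_min hxn (Real.exp_pos _)
      have hlogρ : Real.log ρ ≤ -(c / ε) := by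
        rw [Real.log_le_iff_le_exp hρpos]; exact hρe
      have := annulus_compare (E := E) hu (κ := -ε) (ε := 0) (ρ := ρ) (R := 1) (c := c) hρpos
        ?_ ?_ ?_ x hρx h1
      · have hlog : Real.log ‖x‖ ≤ 0 := Real.log_nonpos hxn.le h1
        rw [abs_of_nonpos hlog]
        have h3 : c ≤ u x + (-ε * Real.log ‖x‖ + 0 * Real.log ‖x‖ ^ 2) := this
        linarith
      · intro y hy1 _
        have hy : y ≠ 0 := by
          intro h0; rw [h0, norm_zero] at hy1; linarith
        rw [hdimR]
        simpa using hlap y hy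
      · intro y hy
        have hy0 : y ≠ 0 := by
          intro h0; rw [h0, norm_zero] at hy; linarith
        have h2 : c ≤ -ε * Real.log ρ := by
          have : c / ε ≤ -Real.log ρ := by linarith
          rw [div_le_iff₀ hε] at this; linarith
        have := hpos y hy0
        simp only [zero_mul, add_zero]
        linarith
      · intro y hy
        simpa using hsphere y hy
  have hglob : ∀ x : E, x ≠ 0 → c ≤ u x := by
    intro x hx
    apply le_of_forall_pos_le_add
    intro δ hδ
    have := hkey x hx (δ / (|Real.log ‖x‖| + 1)) (by positivity)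
    have h2 : δ / (|Real.log ‖x‖| + 1) * |Real.log ‖x‖| ≤ δ := by
      rw [div_mul_eq_mul_div, div_le_iff₀ (by positivity)]
      have : 0 ≤ |Real.log ‖x‖| := abs_nonneg _
      nlinarith
    linarith
  have hloc : IsLocalMin u x0 := by
    filter_upwards [isOpen_ne.mem_nhds hx00] with y hy
    exact hglob y hy
  have := laplacian_nonneg_of_isLocalMin (hu x0 hx00) hloc
  have := hlap x0 hx00
  linarith

end Vale.Agent.Lib.P100
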