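import Vale.Agent.Lib.P100.Liouville

namespace Vale.Agent.Lib.P100

open Laplacian InnerProductSpace Filter Topology

/-- the profile `r^{-a}` in the variable `s = r^2`. -/
noncomputable def pw (a : ℝ) (s : ℝ) : ℝ := s ^ (-(a / 2))

lemma pw_hasDerivAt (a : ℝ) {s : ℝ} (hs : 0 < s) :
    HasDerivAt (pw a) (-(a / 2) * s ^ (-(a / 2) - 1)) s :=
  Real.hasDerivAt_rpow_const (Or.inl hs.ne')

lemma pw_deriv_deriv (a : ℝ) {s : ℝ} (hs : 0 < s) :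
    deriv (deriv (pw a)) s = (a / 2) * (a / 2 + 1) * s ^ (-(a / 2) - 2) := by
  have hev : deriv (pw a) =ᶠ[𝓝 s] fun s => -(a / 2) * s ^ (-(a / 2) - 1) := by
    filter_upwards [(isOpen_lt continuous_const continuous_id).mem_nhds hs] with t ht
    exact (pw_hasDerivAt a ht).deriv
  rw [hev.deriv_eq]
  have h1 : HasDerivAt (fun s : ℝ => s ^ (-(a / 2) - 1)) ((-(a / 2) - 1) * s ^ (-(a / 2) - 1 - 1)) s :=
    Real.hasDerivAt_rpow_const (Or.inl hs.ne')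
  rw [(h1.const_mul (-(a / 2))).deriv]
  have : -(a / 2) - 1 - 1 = -(a / 2) - 2 := by ring
  rw [this]
  ring

lemma pw_contDiffAt (a : ℝ) {s : ℝ} (hs : 0 < s) : ContDiffAt ℝ 2 (pw a) s :=
  Real.contDiffAt_rpow_const_of_ne hs.ne'

section

variable {E : Type*} [NormedAddCommGroup E] [InnerProductSpace ℝ E] [FiniteDimensional ℝ E]

omit [InnerProductSpace ℝ E] [FiniteDimensional ℝ E] in
lemma normsq_rpow (x : E) (t : ℝ) : (‖x‖ ^ 2) ^ t = ‖x‖ ^ (2 * t) := by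
  rw [← Real.rpow_natCast, ← Real.rpow_mul (norm_nonneg x)]
  norm_num

omit [InnerProductSpace ℝ E] [FiniteDimensional ℝ E] in
lemma pw_normsq (a : ℝ) (x : E) : pw a (‖x‖ ^ 2) = ‖x‖ ^ (-a) := by
  unfold pw
  rw [normsq_rpow]
  congr 1
  ring

lemma laplacian_pw (a : ℝ) {x : E} (hx : x ≠ 0) :
    Δ (fun y : E => pw a (‖y‖ ^ 2)) x
      = -(a * (((Module.finrank ℝ E : ℝ) - 2) - a)) * ‖x‖ ^ (-a - 2) := by
  have hxn : 0 < ‖x‖ := norm_pos_iff.2 hx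
  have hs : 0 < ‖x‖ ^ 2 := by positivity
  rw [laplacian_radial (pw_contDiffAt a hs), pw_deriv_deriv a hs, (pw_hasDerivAt a hs).deriv]
  have h1 : (‖x‖ ^ 2) ^ (-(a / 2) - 2) = ‖x‖ ^ (-a - 2) / ‖x‖ ^ 2 := by
    rw [normsq_rpow, eq_div_iff hs.ne', ← Real.rpow_natCast ‖x‖ 2, ← Real.rpow_add hxn]
    congr 1
    push_cast
    ring
  have h2 : (‖x‖ ^ 2) ^ (-(a / 2) - 1) = ‖x‖ ^ (-a - 2) := by
    rw [normsq_rpow]
    congr 1
    ring
  rw [h1, h2]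
  field_simp
  ring

/-- comparison on an annulus with the profile `κ log|x| + μ |x|^{-a}`. -/
lemma annulus_compare2 {u : E → ℝ} (hu : ∀ x, x ≠ 0 → ContDiffAt ℝ 2 u x) {κ μ a ρ R c : ℝ}
    (hρ : 0 < ρ)
    (hlap : ∀ x, ρ < ‖x‖ → ‖x‖ < R → Δ u x + κ * ((Module.finrank ℝ E : ℝ) - 2) / ‖x‖ ^ 2
        - μ * (a * (((Module.finrank ℝ E : ℝ) - 2) - a)) * ‖x‖ ^ (-a - 2) < 0)
    (hin : ∀ x, ‖x‖ = ρ → c ≤ u x + κ * Real.log ρ + μ * ρ ^ (-a))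
    (hout : ∀ x, ‖x‖ = R → c ≤ u x + κ * Real.log R + μ * R ^ (-a)) :
    ∀ x, ρ ≤ ‖x‖ → ‖x‖ ≤ R → c ≤ u x + κ * Real.log ‖x‖ + μ * ‖x‖ ^ (-a) := by
  have hne : ∀ x : E, ρ ≤ ‖x‖ → x ≠ 0 := by
    intro x hx h0
    rw [h0, norm_zero] at hx
    linarith
  have hval : ∀ y : E, u y + cmp κ 0 (‖y‖ ^ 2) + μ * pw a (‖y‖ ^ 2)
      = u y + κ * Real.log ‖y‖ + μ * ‖y‖ ^ (-a) := by
    intro y
    rw [cmp_normsq, pw_normsq]
    ring
  have hpwC : ∀ x : E, x ≠ 0 → ContDiffAt ℝ 2 (fun y : E => pw a (‖y‖ ^ 2)) x := by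
    intro x hx
    have hxn : 0 < ‖x‖ := norm_pos_iff.2 hx
    exact contDiffAt_radial (pw_contDiffAt a (by positivity))
  have hcmpC : ∀ x : E, x ≠ 0 → ContDiffAt ℝ 2 (fun y : E => cmp κ 0 (‖y‖ ^ 2)) x := by
    intro x hx
    exact contDiffAt_radial (cmp_contDiffAt κ 0 (normsq_ne_zero hx))
  have key := min_principle_annulus (E := E)
    (f := fun y => u y + cmp κ 0 (‖y‖ ^ 2) + μ * pw a (‖y‖ ^ 2)) (ρ := ρ) (R := R) (c := c) ?_ ?_ ?_ ?_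
  · intro x h1 h2
    have := key x h1 h2
    rw [hval] at this
    exact this
  · intro x hx
    have hx0 := hne x hx.1
    exact (((hu x hx0).add (hcmpC x hx0)).add
      (contDiffAt_const.mul (hpwC x hx0))).continuousAt.continuousWithinAt
  · intro x h1 h2
    have hx : x ≠ 0 := hne x h1.le
    have hsm : ContDiffAt ℝ 2 (μ • fun y : E => pw a (‖y‖ ^ 2)) x := (hpwC x hx).const_smul μ
    refine ⟨((hu x hx).add (hcmpC x hx)).add (contDiffAt_const.mul (hpwC x hx)), ?_⟩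
    have hfun : (fun y => u y + cmp κ 0 (‖y‖ ^ 2) + μ * pw a (‖y‖ ^ 2))
        = (u + fun y : E => cmp κ 0 (‖y‖ ^ 2)) + (μ • fun y : E => pw a (‖y‖ ^ 2)) := by
      ext y; simp
    have hsum : ContDiffAt ℝ 2 (u + fun y : E => cmp κ 0 (‖y‖ ^ 2)) x := (hu x hx).add (hcmpC x hx)
    rw [hfun, ContDiffAt.laplacian_add hsum hsm,
      ContDiffAt.laplacian_add (hu x hx) (hcmpC x hx), laplacian_smul μ (hpwC x hx),
      laplacian_cmp κ 0 hx, laplacian_pw a hx]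
    have := hlap x h1 h2
    simp only [smul_eq_mul, zero_mul, add_zero]
    linarith
  · intro x hx
    show c ≤ u x + cmp κ 0 (‖x‖ ^ 2) + μ * pw a (‖x‖ ^ 2)
    rw [hval, hx]
    exact hin x hx
  · intro x hx
    show c ≤ u x + cmp κ 0 (‖x‖ ^ 2) + μ * pw a (‖x‖ ^ 2)
    rw [hval, hx]
    exact hout x hx

end

end Vale.Agent.Lib.P100
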