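import Vale.Agent.Lib.P100.Calc

namespace Vale.Agent.Lib.P100

open Laplacian InnerProductSpace Filter Topology

lemma deriv_deriv_comp_quad {φ : ℝ → ℝ} {s a : ℝ} (hφ : ContDiffAt ℝ 2 φ s) :
    deriv (deriv (fun t : ℝ => φ (s + 2 * a * t + t ^ 2))) 0
      = deriv (deriv φ) s * (2 * a) ^ 2 + 2 * deriv φ s := by
  set π : ℝ → ℝ := fun t => s + 2 * a * t + t ^ 2 with hπ
  have hπd : ∀ t, HasDerivAt π (2 * a + 2 * t) t := by
    intro t
    have h1 : HasDerivAt (fun t : ℝ => 2 * a * t) (2 * a) t := by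
      simpa using (hasDerivAt_id t).const_mul (2 * a)
    have h2 : HasDerivAt (fun t : ℝ => t ^ 2) (2 * t) t := by
      simpa using hasDerivAt_pow 2 t
    exact ((h1.const_add s).add h2)
  have hπ0 : π 0 = s := by simp [hπ]
  have hπc : Tendsto π (𝓝 0) (𝓝 s) := by
    have : ContinuousAt π 0 := (hπd 0).continuousAt
    simpa [ContinuousAt, hπ0] using this
  have hev : ∀ᶠ y in 𝓝 s, DifferentiableAt ℝ φ y := by
    have := hφ.eventually (by simp)
    filter_upwards [this] with y hy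
    exact hy.differentiableAt (by norm_num)
  have hev2 : deriv (fun t : ℝ => φ (π t)) =ᶠ[𝓝 (0 : ℝ)] fun t => deriv φ (π t) * (2 * a + 2 * t) := by
    filter_upwards [hπc.eventually hev] with t ht
    exact (ht.hasDerivAt.comp t (hπd t)).deriv
  rw [hev2.deriv_eq]
  have hd : DifferentiableAt ℝ (deriv φ) s := by
    have h1 : ContDiffAt ℝ 1 (deriv φ) s := by
      have := hφ.fderiv_right (m := 1) (by norm_num)
      have h2 : deriv φ = fun y => fderiv ℝ φ y 1 := by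
        ext y; simp
      rw [h2]
      exact this.clm_apply contDiffAt_const
    exact h1.differentiableAt (by norm_num)
  have h3 : HasDerivAt (fun t => deriv φ (π t)) (deriv (deriv φ) s * (2 * a + 2 * 0)) 0 := by
    have : HasDerivAt (deriv φ) (deriv (deriv φ) s) (π 0) := by
      rw [hπ0]; exact hd.hasDerivAt
    exact this.comp 0 (hπd 0)
  have h4 : HasDerivAt (fun t : ℝ => 2 * a + 2 * t) 2 0 := by
    simpa using ((hasDerivAt_id (0 : ℝ)).const_mul 2).const_add (2 * a)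
  have h5 : HasDerivAt (fun t => deriv φ (π t) * (2 * a + 2 * t))
      (deriv (deriv φ) s * (2 * a + 2 * 0) * (2 * a + 2 * 0) + deriv φ (π 0) * 2) 0 := h3.mul h4
  rw [h5.deriv, hπ0]
  ring

section

variable {E : Type*} [NormedAddCommGroup E] [InnerProductSpace ℝ E] [FiniteDimensional ℝ E]

lemma contDiffAt_radial {φ : ℝ → ℝ} {x : E} (hφ : ContDiffAt ℝ 2 φ (‖x‖ ^ 2)) :
    ContDiffAt ℝ 2 (fun y : E => φ (‖y‖ ^ 2)) x :=
  ContDiffAt.comp (f := fun y : E => ‖y‖ ^ 2) x hφ (contDiff_norm_sq ℝ).contDiffAt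

/-- Laplacian of a radial function `φ(|x|^2)`. -/
lemma laplacian_radial {φ : ℝ → ℝ} {x : E} (hφ : ContDiffAt ℝ 2 φ (‖x‖ ^ 2)) :
    Δ (fun y : E => φ (‖y‖ ^ 2)) x
      = 4 * ‖x‖ ^ 2 * deriv (deriv φ) (‖x‖ ^ 2)
        + 2 * (Module.finrank ℝ E : ℝ) * deriv φ (‖x‖ ^ 2) := by
  rw [laplacian_eq_iteratedFDeriv_stdOrthonormalBasis]
  simp only
  have hterm : ∀ i, iteratedFDeriv ℝ 2 (fun y : E => φ (‖y‖ ^ 2)) x
      ![(stdOrthonormalBasis ℝ E) i, (stdOrthonormalBasis ℝ E) i]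
      = deriv (deriv φ) (‖x‖ ^ 2) * (2 * inner ℝ x ((stdOrthonormalBasis ℝ E) i)) ^ 2
        + 2 * deriv φ (‖x‖ ^ 2) := by
    intro i
    rw [iteratedFDeriv_two_line (contDiffAt_radial hφ)]
    set e := (stdOrthonormalBasis ℝ E) i with he
    have hnorm : ‖e‖ = 1 := (stdOrthonormalBasis ℝ E).orthonormal.1 i
    have hfun : (fun t : ℝ => φ (‖x + t • e‖ ^ 2))
        = fun t : ℝ => φ (‖x‖ ^ 2 + 2 * inner ℝ x e * t + t ^ 2) := by
      ext t
      congr 1
      rw [norm_add_sq_real, inner_smul_right, norm_smul, hnorm]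
      simp only [Real.norm_eq_abs, mul_one, sq_abs]
      ring
    rw [hfun]
    exact deriv_deriv_comp_quad hφ
  rw [Finset.sum_congr rfl (fun i _ => hterm i), Finset.sum_add_distrib, ← Finset.mul_sum]
  have hsum : ∑ i, (2 * inner ℝ x ((stdOrthonormalBasis ℝ E) i)) ^ 2 = 4 * ‖x‖ ^ 2 := by
    have h1 := (stdOrthonormalBasis ℝ E).sum_sq_norm_inner_left x
    have h2 : ∀ i, (2 * inner ℝ x ((stdOrthonormalBasis ℝ E) i)) ^ 2
        = 4 * ‖inner ℝ x ((stdOrthonormalBasis ℝ E) i)‖ ^ 2 := by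
      intro i
      rw [Real.norm_eq_abs, sq_abs]; ring
    rw [Finset.sum_congr rfl (fun i _ => h2 i), ← Finset.mul_sum, h1]
  rw [hsum]
  simp only [Finset.sum_const, Finset.card_univ, Fintype.card_fin, nsmul_eq_mul]
  ring

end

end Vale.Agent.Lib.P100
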