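import Vale.Agent.Lib.P100.Liouville

namespace Vale.Agent.Lib.P100

open Laplacian InnerProductSpace Filter Topology

variable {E : Type*} [NormedAddCommGroup E] [InnerProductSpace ℝ E] [FiniteDimensional ℝ E]

/-- In dimension at least three, a nonnegative `C^2` function on a punctured ball with
`-Δ u ≥ c |x|^{-2}` cannot stay bounded near the origin. -/
theorem no_bounded_singular (hdim : 3 ≤ Module.finrank ℝ E) {u : E → ℝ} {c U : ℝ} (hc : 0 < c)
    (hu : ∀ x, x ≠ 0 → ContDiffAt ℝ 2 u x)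
    (hpos : ∀ x, x ≠ 0 → ‖x‖ ≤ Real.exp (-1) → 0 ≤ u x)
    (hbdd : ∀ x, x ≠ 0 → ‖x‖ ≤ Real.exp (-1) → u x ≤ U)
    (hlap : ∀ x, x ≠ 0 → ‖x‖ ≤ Real.exp (-1) → Δ u x ≤ -(c / ‖x‖ ^ 2)) : False := by
  have hnt : Nontrivial E := by
    apply Module.nontrivial_of_finrank_pos (R := ℝ)
    omega
  set d : ℝ := (Module.finrank ℝ E : ℝ) - 2 with hd
  have hd1 : 1 ≤ d := by
    have : (3 : ℝ) ≤ (Module.finrank ℝ E : ℝ) := by exact_mod_cast hdim
    rw [hd]; linarith
  set κ : ℝ := c / (2 * d) with hκ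
  have hκpos : 0 < κ := by positivity
  have hκd : κ * d = c / 2 := by
    rw [hκ]; field_simp
  set R := Real.exp (-1) with hR
  have hRpos : 0 < R := Real.exp_pos _
  have hlogR : Real.log R = -1 := by rw [hR, Real.log_exp]
  have hkey : ∀ x : E, x ≠ 0 → ‖x‖ ≤ R → ∀ ε : ℝ, 0 < ε →
      -κ ≤ u x + (κ * Real.log ‖x‖ + ε * (Real.log ‖x‖) ^ 2) := by
    intro x hx hxR ε hε
    have hxn : 0 < ‖x‖ := norm_pos_iff.2 hx
    set ρ := min ‖x‖ (Real.exp (-(κ / ε))) with hρ
    have hρx : ρ ≤ ‖x‖ := min_le_left _ _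
    have hρe : ρ ≤ Real.exp (-(κ / ε)) := min_le_right _ _
    have hρpos : 0 < ρ := lt_min hxn (Real.exp_pos _)
    have hlogρ : Real.log ρ ≤ -(κ / ε) := by
      rw [Real.log_le_iff_le_exp hρpos]; exact hρe
    refine annulus_compare (E := E) hu (κ := κ) (ε := ε) (ρ := ρ) (R := R) (c := -κ) hρpos
      ?_ ?_ ?_ x hρx hxR
    · intro y hy1 hy2
      have hy : y ≠ 0 := by
        intro h0; rw [h0, norm_zero] at hy1; linarith
      have hyn : 0 < ‖y‖ := norm_pos_iff.2 hy
      have h1 := hlap y hy hy2.le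
      have hlogy : Real.log (‖y‖ ^ 2) ≤ -2 := by
        rw [Real.log_pow]
        have : Real.log ‖y‖ ≤ Real.log R := Real.log_le_log hyn hy2.le
        rw [hlogR] at this
        push_cast
        linarith
      have h2 : 2 + d * Real.log (‖y‖ ^ 2) ≤ 0 := by nlinarith
      have hs : 0 < ‖y‖ ^ 2 := by positivity
      have h3 : (κ * d + ε * (2 + d * Real.log (‖y‖ ^ 2))) / ‖y‖ ^ 2 ≤ (c / 2) / ‖y‖ ^ 2 := by
        apply div_le_div_of_nonneg_right _ hs.le
        rw [hκd]
        nlinarith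
      have h4 : 0 < c / ‖y‖ ^ 2 := by positivity
      have h5 : (c / 2) / ‖y‖ ^ 2 = (c / ‖y‖ ^ 2) / 2 := by ring
      linarith
    · intro y hy
      have hy0 : y ≠ 0 := by
        intro h0; rw [h0, norm_zero] at hy; linarith
      have h1 := hpos y hy0 (by rw [hy]; exact hρx.trans hxR)
      have h2 : κ + ε * Real.log ρ ≤ 0 := by
        have : ε * Real.log ρ ≤ ε * (-(κ / ε)) := mul_le_mul_of_nonneg_left hlogρ hε.le
        have h3 : ε * (-(κ / ε)) = -κ := by field_simp
        linarith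
      have h3 : Real.log ρ ≤ 0 := by
        have : 0 < κ / ε := by positivity
        linarith
      have h4 : 0 ≤ Real.log ρ * (κ + ε * Real.log ρ) := mul_nonneg_of_nonpos_of_nonpos h3 h2
      nlinarith
    · intro y hy
      have hy0 : y ≠ 0 := by
        intro h0; rw [h0, norm_zero] at hy; linarith
      have h1 := hpos y hy0 hy.le
      rw [hlogR]
      nlinarith
  have hlim : ∀ x : E, x ≠ 0 → ‖x‖ ≤ R → -κ ≤ u x + κ * Real.log ‖x‖ := by
    intro x hx hxR
    apply le_of_forall_pos_le_add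
    intro δ hδ
    have := hkey x hx hxR (δ / ((Real.log ‖x‖) ^ 2 + 1)) (by positivity)
    have h2 : δ / ((Real.log ‖x‖) ^ 2 + 1) * (Real.log ‖x‖) ^ 2 ≤ δ := by
      rw [div_mul_eq_mul_div, div_le_iff₀ (by positivity)]
      have : 0 ≤ (Real.log ‖x‖) ^ 2 := by positivity
      nlinarith
    linarith
  -- choose a point very close to the origin
  have hU : 0 ≤ U := by
    obtain ⟨x, hx⟩ := exists_norm_eq E hRpos.le
    have hx0 : x ≠ 0 := by
      intro h0; rw [h0, norm_zero] at hx; linarith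
    exact (hpos x hx0 hx.le).trans (hbdd x hx0 hx.le)
  set T : ℝ := U / κ + 2 with hT
  have hT2 : 2 ≤ T := by
    have : 0 ≤ U / κ := by positivity
    linarith
  obtain ⟨x, hx⟩ := exists_norm_eq E (Real.exp_pos (-T)).le
  have hx0 : x ≠ 0 := by
    intro h0; rw [h0, norm_zero] at hx
    exact absurd hx (Real.exp_pos (-T)).ne
  have hxR : ‖x‖ ≤ R := by
    rw [hx, hR]
    apply Real.exp_le_exp.2
    linarith
  have h1 := hlim x hx0 hxR
  rw [hx, Real.log_exp] at h1
  have h2 := hbdd x hx0 hxR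
  have h3 : κ * T = U + 2 * κ := by
    rw [hT]; field_simp
  nlinarith

end Vale.Agent.Lib.P100
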